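import Vale.Agent.P083.Final

namespace Vale.Agent.Results.P083.Counterexample

open Vale.Agent.P083

universe u

theorem result : ∃ (A : Type) (_ : CStarAlgebra A), TopologicalSpace.SeparableSpace A ∧
    Nontrivial A ∧ ∀ (D : Type u) [CStarAlgebra D] (s₁ s₂ : D), star s₁ * s₁ = 1 →
      star s₂ * s₂ = 1 → s₁ * star s₁ + s₂ * star s₂ = 1 →
      (StarAlgebra.adjoin ℂ {s₁, s₂}).topologicalClosure = ⊤ →
      ∀ ω : Ultrafilter ℕ, ¬ ∃ φ : A →⋆ₐ[ℂ] Ultrapower D ω, Function.Injective φ :=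
  final

end Vale.Agent.Results.P083.Counterexample
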